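import Vale.Agent.H63.TreeGlue

/-!
# P235: treewidth at most three, one nonexpansive map into `ℓ₁`, isometric on every bag and every edge

For a finite connected graph with positive edge lengths and a tree decomposition all of whose
bags have at most four vertices, there is a map of the vertex set into a finite-dimensional
`ℓ₁` space that does not increase the shortest-path distance of any pair of vertices and
preserves exactly the distance of every pair of vertices lying in a common bag.
-/

namespace Vale.Agent.Results.P235.B_BagAndEdgeIsometry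

open Vale.Agent.H63

/-- The shortest-path distance of a graph with edge lengths `ℓ`: the infimum over all walks
from `u` to `v` of the sum of the lengths of the edges traversed. -/
noncomputable def pathDist {V : Type*} (G : SimpleGraph V) (ℓ : Sym2 V → ℝ) (u v : V) : ℝ :=
  ⨅ p : G.Walk u v, (p.edges.map ℓ).sum

section
variable {V : Type*} (G : SimpleGraph V) (ℓ : Sym2 V → ℝ)

theorem walk_len_nonneg (hℓ : ∀ e ∈ G.edgeSet, 0 < ℓ e) {u v : V} (p : G.Walk u v) :
    0 ≤ (p.edges.map ℓ).sum := by
  apply List.sum_nonneg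
  intro x hx
  obtain ⟨e, he, rfl⟩ := List.mem_map.mp hx
  exact (hℓ e (p.edges_subset_edgeSet he)).le

theorem bddBelow_len (hℓ : ∀ e ∈ G.edgeSet, 0 < ℓ e) (u v : V) :
    BddBelow (Set.range fun p : G.Walk u v => (p.edges.map ℓ).sum) :=
  ⟨0, by rintro _ ⟨p, rfl⟩; exact walk_len_nonneg G ℓ hℓ p⟩

theorem pathDist_le (hℓ : ∀ e ∈ G.edgeSet, 0 < ℓ e) {u v : V} (p : G.Walk u v) :
    pathDist G ℓ u v ≤ (p.edges.map ℓ).sum :=
  ciInf_le (bddBelow_len G ℓ hℓ u v) p

theorem pathDist_self (hℓ : ∀ e ∈ G.edgeSet, 0 < ℓ e) (u : V) : pathDist G ℓ u u = 0 := by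
  apply le_antisymm
  · have := pathDist_le G ℓ hℓ (SimpleGraph.Walk.nil : G.Walk u u)
    simpa using this
  · have : Nonempty (G.Walk u u) := ⟨SimpleGraph.Walk.nil⟩
    exact le_ciInf fun p => walk_len_nonneg G ℓ hℓ p

theorem pathDist_comm_le (hG : G.Connected) (hℓ : ∀ e ∈ G.edgeSet, 0 < ℓ e) (u v : V) :
    pathDist G ℓ u v ≤ pathDist G ℓ v u := by
  have : Nonempty (G.Walk v u) := hG.preconnected v u
  apply le_ciInf
  intro p
  have := pathDist_le G ℓ hℓ p.reverse
  simpa [SimpleGraph.Walk.edges_reverse, List.map_reverse, List.sum_reverse] using this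

theorem pathDist_comm (hG : G.Connected) (hℓ : ∀ e ∈ G.edgeSet, 0 < ℓ e) (u v : V) :
    pathDist G ℓ u v = pathDist G ℓ v u :=
  le_antisymm (pathDist_comm_le G ℓ hG hℓ u v) (pathDist_comm_le G ℓ hG hℓ v u)

theorem pathDist_triangle (hG : G.Connected) (hℓ : ∀ e ∈ G.edgeSet, 0 < ℓ e) (u v w : V) :
    pathDist G ℓ u w ≤ pathDist G ℓ u v + pathDist G ℓ v w := by
  have : Nonempty (G.Walk u v) := hG.preconnected u v
  have : Nonempty (G.Walk v w) := hG.preconnected v w
  have h1 : ∀ q : G.Walk v w, pathDist G ℓ u w - (q.edges.map ℓ).sum ≤ pathDist G ℓ u v := by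
    intro q
    apply le_ciInf
    intro p
    have := pathDist_le G ℓ hℓ (p.append q)
    rw [SimpleGraph.Walk.edges_append, List.map_append, List.sum_append] at this
    linarith
  have h2 : pathDist G ℓ u w - pathDist G ℓ u v ≤ pathDist G ℓ v w := by
    apply le_ciInf
    intro q
    have := h1 q
    linarith
  linarith

theorem pathDist_adj (hℓ : ∀ e ∈ G.edgeSet, 0 < ℓ e) {u v : V} (h : G.Adj u v) :
    pathDist G ℓ u v ≤ ℓ s(u, v) := by
  have := pathDist_le G ℓ hℓ (SimpleGraph.Walk.cons h SimpleGraph.Walk.nil)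
  simpa using this

end

/-- **Treewidth at most three: a nonexpansive map into `ℓ₁` that is isometric on every bag.**
`G` is a finite connected graph with positive edge lengths `ℓ`, and the pair T, B is a tree
decomposition of `G` with bags of at most four vertices: `T` is a tree, every edge of `G` lies in
a bag, and for each vertex the bags containing it induce a connected (in particular nonempty)
subgraph of `T`.  Then some `f : V → ℝⁿ` satisfies `‖f u - f v‖₁ ≤ d_{G,ℓ}(u, v)` for all `u, v`,
with equality whenever `u` and `v` lie in a common bag. -/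
theorem bag_isometry {V : Type*} [Fintype V] (G : SimpleGraph V) (hG : G.Connected)
    (ℓ : Sym2 V → ℝ) (hℓ : ∀ e ∈ G.edgeSet, 0 < ℓ e)
    {ι : Type*} [Fintype ι] (T : SimpleGraph ι) (hT : T.IsTree) (B : ι → Finset V)
    (hedge : ∀ u v, G.Adj u v → ∃ t, u ∈ B t ∧ v ∈ B t)
    (hsub : ∀ v, (T.induce {t | v ∈ B t}).Connected)
    (hwidth : ∀ t, (B t).card ≤ 4) :
    ∃ (n : ℕ) (f : V → Fin n → ℝ),
      (∀ u v, ∑ i, |f u i - f v i| ≤ pathDist G ℓ u v) ∧
      (∀ t, ∀ u ∈ B t, ∀ v ∈ B t, ∑ i, |f u i - f v i| = pathDist G ℓ u v) := by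
  classical
  -- the subtree property in walk form
  have hrip : WalkRIP T B := by
    intro v s s' hs hs'
    obtain ⟨q⟩ := (hsub v).preconnected ⟨s, hs⟩ ⟨s', hs'⟩
    have key : ∀ r ∈ (q.map (SimpleGraph.Embedding.induce {t | v ∈ B t}).toHom).support,
        v ∈ B r := by
      intro r hr
      rw [SimpleGraph.Walk.support_map] at hr
      obtain ⟨x, _, rfl⟩ := List.mem_map.mp hr
      exact x.2
    exact ⟨q.map (SimpleGraph.Embedding.induce {t | v ∈ B t}).toHom, key⟩
  obtain ⟨w, hw, hiso⟩ := core (pathDist G ℓ) (pathDist_self G ℓ hℓ) (pathDist_comm G ℓ hG hℓ)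
    (pathDist_triangle G ℓ hG hℓ) _ ι T B rfl hT hwidth hrip
  -- the cut semimetric is dominated by the length of every walk
  have hwalk : ∀ {u v : V} (p : G.Walk u v), cutDist w u v ≤ (p.edges.map ℓ).sum := by
    intro u v p
    induction p with
    | nil => simp [cutDist_self]
    | cons h p ih =>
      rename_i a b c
      obtain ⟨t, hat, hbt⟩ := hedge _ _ h
      have e1 : cutDist w a b = pathDist G ℓ a b := hiso t a hat b hbt
      have e2 := pathDist_adj G ℓ hℓ h
      have e3 := cutDist_triangle hw a b c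
      simp only [SimpleGraph.Walk.edges_cons, List.map_cons, List.sum_cons]
      linarith
  have hnonexp : ∀ u v, cutDist w u v ≤ pathDist G ℓ u v := by
    intro u v
    have : Nonempty (G.Walk u v) := hG.preconnected u v
    exact le_ciInf fun p => hwalk p
  -- coordinates indexed by the cuts
  have hcoord : ∀ u v : V,
      ∑ s : V → Bool, |(if s u then w s else 0) - (if s v then w s else 0)| = cutDist w u v := by
    intro u v
    unfold cutDist
    apply Finset.sum_congr rfl
    intro s _
    have := hw s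
    cases h1 : s u <;> cases h2 : s v <;> simp [abs_of_nonneg, this]
  let e := Fintype.equivFin (V → Bool)
  refine ⟨Fintype.card (V → Bool), fun u i => if e.symm i u then w (e.symm i) else 0, ?_, ?_⟩
  · intro u v
    have : ∑ i, |(if e.symm i u then w (e.symm i) else 0) - (if e.symm i v then w (e.symm i) else 0)|
        = cutDist w u v := by
      rw [← hcoord u v]
      exact Equiv.sum_comp e.symm
        (fun s => |(if s u then w s else 0) - (if s v then w s else 0)|)
    rw [this]
    exact hnonexp u v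
  · intro t u hu v hv
    have : ∑ i, |(if e.symm i u then w (e.symm i) else 0) - (if e.symm i v then w (e.symm i) else 0)|
        = cutDist w u v := by
      rw [← hcoord u v]
      exact Equiv.sum_comp e.symm
        (fun s => |(if s u then w s else 0) - (if s v then w s else 0)|)
    rw [this]
    exact hiso t u hu v hv

/-- **Treewidth at most three: one nonexpansive map into `ℓ₁`, isometric on every bag and on
every edge.**  Hypotheses as in `bag_isometry`.  Some `f : V → ℝⁿ` satisfies
(1) `‖f u - f v‖₁ ≤ d_{G,ℓ}(u, v)` for all `u, v`; (2) equality whenever `u` and `v` lie in a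
common bag; (3) equality for the two ends of every edge of `G`. -/
theorem result {V : Type*} [Fintype V] (G : SimpleGraph V) (hG : G.Connected)
    (ℓ : Sym2 V → ℝ) (hℓ : ∀ e ∈ G.edgeSet, 0 < ℓ e)
    {ι : Type*} [Fintype ι] (T : SimpleGraph ι) (hT : T.IsTree) (B : ι → Finset V)
    (hedge : ∀ u v, G.Adj u v → ∃ t, u ∈ B t ∧ v ∈ B t)
    (hsub : ∀ v, (T.induce {t | v ∈ B t}).Connected)
    (hwidth : ∀ t, (B t).card ≤ 4) :
    ∃ (n : ℕ) (f : V → Fin n → ℝ),
      (∀ u v, ∑ i, |f u i - f v i| ≤ pathDist G ℓ u v) ∧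
      (∀ t, ∀ u ∈ B t, ∀ v ∈ B t, ∑ i, |f u i - f v i| = pathDist G ℓ u v) ∧
      (∀ u v, G.Adj u v → ∑ i, |f u i - f v i| = pathDist G ℓ u v) := by
  obtain ⟨n, f, h1, h2⟩ := bag_isometry G hG ℓ hℓ T hT B hedge hsub hwidth
  refine ⟨n, f, h1, h2, ?_⟩
  intro u v huv
  obtain ⟨t, hu, hv⟩ := hedge u v huv
  exact h2 t u hu v hv

end Vale.Agent.Results.P235.B_BagAndEdgeIsometry
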